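import Vale.Agent.H73.KTV.JohnsonGap
import Vale.Agent.H32.KTV.JohnsonSurplus

/-!
The Johnson surplus inequality on the `k`-subsets of a finite set `A`, unconditional:
the covariance bound of `Vale.Agent.H32.KTV.johnson_surplus_of_gap` combined with the sharp
Johnson gap `Vale.Agent.H73.johnson_gap`.
-/

namespace Vale.Agent.H73

open Finset

/-- **Johnson surplus** (Step 4 of the simple-graph argument), un-normalised sums. -/
theorem johnson_surplus {α : Type*} [DecidableEq α] (A : Finset α) (k : ℕ) (f : Finset α → ℝ) :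
    2 * ∑ w ∈ A, ∑ z ∈ A.erase w,
        (((A.powersetCard k).filter (fun T => (w ∈ T) ≠ (z ∈ T))).card : ℝ) *
          ((∑ T ∈ (A.powersetCard k).filter (fun T => (w ∈ T) ≠ (z ∈ T)), f T) /
              (((A.powersetCard k).filter (fun T => (w ∈ T) ≠ (z ∈ T))).card : ℝ)
            - (∑ T ∈ A.powersetCard k, f T) / ((A.powersetCard k).card : ℝ)) ^ 2
      + 4 * ∑ T ∈ A.powersetCard k,
          (f T - (∑ S ∈ A.powersetCard k, f S) / ((A.powersetCard k).card : ℝ)) ^ 2
      ≤ ∑ T ∈ A.powersetCard k, ∑ x ∈ T, ∑ y ∈ A \ T,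
          (f T - f (insert y (T.erase x))) ^ 2 :=
  Vale.Agent.H32.KTV.johnson_surplus_of_gap A k f (johnson_gap A k f)

end Vale.Agent.H73
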