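import Vale.Agent.H58.KTV.Spec

/-!
Sharp spectral gap of the Johnson graph in the subset model: for a real function on the
`k`-subsets of a finite set `A` of size `D`, `D * Var <= Dir`, written with un-normalised sums.
-/

namespace Vale.Agent.H73

open Finset Vale.Agent.H90

section JG

variable {α : Type*} [DecidableEq α]

/-- The Johnson move: remove `x`, add `y`. -/
def swp (U : Finset α) (x y : α) : Finset α := insert y (U.erase x)

/-- The un-normalised Johnson Laplacian on subsets of `A`. -/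
def jlap (A : Finset α) (F : Finset α → ℝ) (U : Finset α) : ℝ :=
  ∑ x ∈ U, ∑ y ∈ A \ U, (F U - F (swp U x y))

theorem swp_mem {A : Finset α} {k : ℕ} {U : Finset α} {x y : α}
    (hU : U ∈ A.powersetCard k) (hx : x ∈ U) (hy : y ∈ A \ U) :
    swp U x y ∈ A.powersetCard k := by
  rw [mem_powersetCard] at hU ⊢
  rw [mem_sdiff] at hy
  refine ⟨?_, ?_⟩
  · intro z hz
    simp only [swp, mem_insert, mem_erase] at hz
    rcases hz with rfl | ⟨-, hz⟩
    · exact hy.1
    · exact hU.1 hz
  · unfold swp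
    rw [card_insert_of_notMem (fun h => hy.2 (mem_of_mem_erase h)), card_erase_of_mem hx]
    have : 0 < U.card := card_pos.2 ⟨x, hx⟩
    omega

theorem swp_swp {U : Finset α} {x y : α} (hx : x ∈ U) (hy : y ∉ U) :
    swp (swp U x y) y x = U := by
  unfold swp
  rw [erase_insert (fun h => hy (mem_of_mem_erase h)), insert_erase hx]

theorem mem_swp_self {U : Finset α} {x y : α} : y ∈ swp U x y := by
  simp [swp]

theorem notMem_swp {U : Finset α} {x y : α} (hxy : x ≠ y) : x ∉ swp U x y := by
  simp [swp, hxy]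

/-- The set of all moves U, x, y inside the family of k-subsets of A. -/
def moves (A : Finset α) (k : ℕ) : Finset (Finset α × (α × α)) :=
  ((A.powersetCard k) ×ˢ (A ×ˢ A)).filter (fun t => t.2.1 ∈ t.1 ∧ t.2.2 ∉ t.1)

theorem mem_moves {A : Finset α} {k : ℕ} (t : Finset α × (α × α)) :
    t ∈ moves A k ↔ t.1 ∈ A.powersetCard k ∧ t.2 ∈ t.1 ×ˢ (A \ t.1) := by
  simp only [moves, mem_filter, mem_product, mem_sdiff]
  constructor
  · rintro ⟨⟨h1, -, h3⟩, h4, h5⟩
    exact ⟨h1, h4, h3, h5⟩
  · rintro ⟨h1, h4, h3, h5⟩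
    exact ⟨⟨h1, (mem_powersetCard.1 h1).1 h4, h3⟩, h4, h5⟩

theorem sum_moves (A : Finset α) (k : ℕ) (G : Finset α → α → α → ℝ) :
    ∑ t ∈ moves A k, G t.1 t.2.1 t.2.2
      = ∑ U ∈ A.powersetCard k, ∑ x ∈ U, ∑ y ∈ A \ U, G U x y := by
  rw [Finset.sum_finset_product' (moves A k) (A.powersetCard k) (fun U => U ×ˢ (A \ U))
    (fun t => mem_moves t) (f := fun U p => G U p.1 p.2)]
  refine Finset.sum_congr rfl (fun U _ => ?_)
  rw [Finset.sum_product]

/-- The involution on moves: replace U by U - x + y and exchange x, y. -/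
theorem sum_moves_inv (A : Finset α) (k : ℕ) (G : Finset α → α → α → ℝ) :
    ∑ U ∈ A.powersetCard k, ∑ x ∈ U, ∑ y ∈ A \ U, G U x y
      = ∑ U ∈ A.powersetCard k, ∑ x ∈ U, ∑ y ∈ A \ U, G (swp U x y) y x := by
  rw [← sum_moves A k G, ← sum_moves A k (fun U x y => G (swp U x y) y x)]
  have key : ∀ t ∈ moves A k, (swp t.1 t.2.1 t.2.2, (t.2.2, t.2.1)) ∈ moves A k := by
    intro t ht
    rw [mem_moves] at ht ⊢
    obtain ⟨h1, h2⟩ := ht
    rw [mem_product] at h2
    obtain ⟨hx, hy⟩ := h2
    have hy' := mem_sdiff.1 hy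
    have hne : t.2.1 ≠ t.2.2 := fun h => hy'.2 (h ▸ hx)
    refine ⟨swp_mem h1 hx hy, ?_⟩
    rw [mem_product, mem_sdiff]
    exact ⟨mem_swp_self, (mem_powersetCard.1 h1).1 hx, notMem_swp hne⟩
  have inv : ∀ t ∈ moves A k,
      (swp (swp t.1 t.2.1 t.2.2) t.2.2 t.2.1, (t.2.1, t.2.2)) = t := by
    intro t ht
    rw [mem_moves] at ht
    obtain ⟨h1, h2⟩ := ht
    rw [mem_product] at h2
    obtain ⟨hx, hy⟩ := h2
    have hy' := mem_sdiff.1 hy
    rw [swp_swp hx hy'.2]
  refine Finset.sum_nbij' (fun t => (swp t.1 t.2.1 t.2.2, (t.2.2, t.2.1)))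
    (fun t => (swp t.1 t.2.1 t.2.2, (t.2.2, t.2.1))) key key inv inv ?_
  intro t ht
  have := inv t ht
  have h1 : swp (swp t.1 t.2.1 t.2.2) t.2.2 t.2.1 = t.1 := congrArg Prod.fst this
  simp only
  rw [h1]

/-- The Dirichlet pairing. -/
theorem sum_mul_jlap (A : Finset α) (k : ℕ) (F G : Finset α → ℝ) :
    2 * ∑ U ∈ A.powersetCard k, G U * jlap A F U
      = ∑ U ∈ A.powersetCard k, ∑ x ∈ U, ∑ y ∈ A \ U,
          (F U - F (swp U x y)) * (G U - G (swp U x y)) := by
  have h1 : ∑ U ∈ A.powersetCard k, G U * jlap A F U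
      = ∑ U ∈ A.powersetCard k, ∑ x ∈ U, ∑ y ∈ A \ U, G U * (F U - F (swp U x y)) := by
    refine Finset.sum_congr rfl (fun U _ => ?_)
    unfold jlap
    rw [Finset.mul_sum]
    refine Finset.sum_congr rfl (fun x _ => ?_)
    rw [Finset.mul_sum]
  have h2 : ∑ U ∈ A.powersetCard k, G U * jlap A F U
      = ∑ U ∈ A.powersetCard k, ∑ x ∈ U, ∑ y ∈ A \ U,
          G (swp U x y) * (F (swp U x y) - F U) := by
    rw [h1, sum_moves_inv A k (fun U x y => G U * (F U - F (swp U x y)))]
    refine Finset.sum_congr rfl (fun U _ => ?_)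
    refine Finset.sum_congr rfl (fun x hx => ?_)
    refine Finset.sum_congr rfl (fun y hy => ?_)
    rw [swp_swp hx (mem_sdiff.1 hy).2]
  have h3 : 2 * ∑ U ∈ A.powersetCard k, G U * jlap A F U
      = ∑ U ∈ A.powersetCard k, G U * jlap A F U
        + ∑ U ∈ A.powersetCard k, G U * jlap A F U := by ring
  rw [h3]
  nth_rewrite 1 [h1]
  rw [h2, ← Finset.sum_add_distrib]
  refine Finset.sum_congr rfl (fun U _ => ?_)
  rw [← Finset.sum_add_distrib]
  refine Finset.sum_congr rfl (fun x _ => ?_)
  rw [← Finset.sum_add_distrib]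
  refine Finset.sum_congr rfl (fun y _ => ?_)
  ring

/-- Connectivity: a function invariant under all moves is constant on `A.powersetCard k`. -/
theorem const_of_moves (A : Finset α) (k : ℕ) (F : Finset α → ℝ)
    (h : ∀ U ∈ A.powersetCard k, ∀ x ∈ U, ∀ y ∈ A \ U, F U = F (swp U x y)) :
    ∀ U ∈ A.powersetCard k, ∀ V ∈ A.powersetCard k, F U = F V := by
  have main : ∀ n : ℕ, ∀ U ∈ A.powersetCard k, ∀ V ∈ A.powersetCard k,
      (U \ V).card = n → F U = F V := by
    intro n
    induction n with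
    | zero =>
      intro U hU V hV hn
      have hsub : U ⊆ V := by
        rw [← sdiff_eq_empty_iff_subset]
        exact card_eq_zero.1 hn
      have hUV : U = V := by
        apply eq_of_subset_of_card_le hsub
        rw [(mem_powersetCard.1 hU).2, (mem_powersetCard.1 hV).2]
      rw [hUV]
    | succ n ih =>
      intro U hU V hV hn
      have hUc := (mem_powersetCard.1 hU).2
      have hVc := (mem_powersetCard.1 hV).2
      have hne : (U \ V).Nonempty := by
        rw [← card_pos, hn]; exact Nat.succ_pos n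
      obtain ⟨x, hx⟩ := hne
      have hcomm : (V \ U).card = (U \ V).card := card_sdiff_comm (by rw [hUc, hVc])
      have hne2 : (V \ U).Nonempty := by
        rw [← card_pos, hcomm, hn]; exact Nat.succ_pos n
      obtain ⟨y, hy⟩ := hne2
      rw [mem_sdiff] at hx hy
      have hyA : y ∈ A \ U := mem_sdiff.2 ⟨(mem_powersetCard.1 hV).1 hy.1, hy.2⟩
      have hstep := h U hU x hx.1 y hyA
      have hmem := swp_mem hU hx.1 hyA
      have hsd : swp U x y \ V = (U \ V).erase x := by
        ext z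
        simp only [swp, mem_sdiff, mem_insert, mem_erase]
        constructor
        · rintro ⟨rfl | ⟨hzx, hzU⟩, hzV⟩
          · exact absurd hy.1 hzV
          · exact ⟨hzx, hzU, hzV⟩
        · rintro ⟨hzx, hzU, hzV⟩
          exact ⟨Or.inr ⟨hzx, hzU⟩, hzV⟩
      have hcard : (swp U x y \ V).card = n := by
        rw [hsd, card_erase_of_mem (mem_sdiff.2 hx), hn]
        rfl
      rw [hstep]
      exact ih _ hmem V hV hcard
  intro U hU V hV
  exact main _ U hU V hV rfl

/-- The coupling identity for the Johnson Laplacian at two adjacent sets. -/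
theorem jlap_coupling (A : Finset α) (F : Finset α → ℝ) (U : Finset α) (hUA : U ⊆ A) (b c : α)
    (hb : b ∈ U) (hc : c ∈ A \ U) :
    jlap A F U - jlap A F (swp U b c)
      = ((A.card : ℝ) + ((U.erase b).card : ℝ) * (((A \ U).erase c).card : ℝ))
          * (F U - F (swp U b c))
        - ∑ i ∈ U.erase b, ∑ j ∈ (A \ U).erase c,
            (F (swp U i j) - F (swp (swp U i j) b c)) := by
  have hcA : c ∈ A := (mem_sdiff.1 hc).1
  have hcU : c ∉ U := (mem_sdiff.1 hc).2
  have hbA : b ∈ A := hUA hb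
  have hbc : b ≠ c := fun h => hcU (h ▸ hb)
  have hW' : A \ swp U b c = insert b ((A \ U).erase c) := by
    ext z
    simp only [swp, mem_sdiff, mem_insert, mem_erase]
    constructor
    · rintro ⟨hzA, hz⟩
      by_cases hzb : z = b
      · exact Or.inl hzb
      · refine Or.inr ⟨fun hzc => hz (Or.inl hzc), hzA, fun hzU => hz (Or.inr ⟨hzb, hzU⟩)⟩
    · rintro (rfl | ⟨hzc, hzA, hzU⟩)
      · exact ⟨hbA, fun h => h.elim (fun h => hbc h) (fun h => h.1 rfl)⟩
      · exact ⟨hzA, fun h => h.elim (fun h => hzc h) (fun h => hzU h.2)⟩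
  have s1 : swp (swp U b c) c b = U := swp_swp hb hcU
  have s2 : ∀ j, swp (swp U b c) c j = swp U b j := by
    intro j
    unfold swp
    rw [erase_insert (fun h => hcU (mem_of_mem_erase h))]
  have s3 : ∀ i ∈ U.erase b, swp (swp U b c) i b = swp U i c := by
    intro i hi
    have hib : i ≠ b := (mem_erase.1 hi).1
    have hiU : i ∈ U := (mem_erase.1 hi).2
    have hic : i ≠ c := fun h => hcU (h ▸ hiU)
    ext z
    simp only [swp, mem_insert, mem_erase]
    constructor
    · rintro (rfl | ⟨hzi, rfl | ⟨hzb, hzU⟩⟩)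
      · exact Or.inr ⟨fun h => hib h.symm, hb⟩
      · exact Or.inl rfl
      · exact Or.inr ⟨hzi, hzU⟩
    · rintro (rfl | ⟨hzi, hzU⟩)
      · exact Or.inr ⟨fun h => hic h.symm, Or.inl rfl⟩
      · by_cases hzb : z = b
        · exact Or.inl hzb
        · exact Or.inr ⟨hzi, Or.inr ⟨hzb, hzU⟩⟩
  have s4 : ∀ i ∈ U.erase b, ∀ j ∈ (A \ U).erase c,
      swp (swp U b c) i j = swp (swp U i j) b c := by
    intro i hi j hj
    have hib : i ≠ b := (mem_erase.1 hi).1
    have hiU : i ∈ U := (mem_erase.1 hi).2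
    have hic : i ≠ c := fun h => hcU (h ▸ hiU)
    have hjU : j ∉ U := (mem_sdiff.1 (mem_erase.1 hj).2).2
    have hjb : j ≠ b := fun h => hjU (h ▸ hb)
    ext z
    simp only [swp, mem_insert, mem_erase]
    constructor
    · rintro (rfl | ⟨hzi, rfl | ⟨hzb, hzU⟩⟩)
      · exact Or.inr ⟨hjb, Or.inl rfl⟩
      · exact Or.inl rfl
      · exact Or.inr ⟨hzb, Or.inr ⟨hzi, hzU⟩⟩
    · rintro (rfl | ⟨hzb, rfl | ⟨hzi, hzU⟩⟩)
      · exact Or.inr ⟨fun h => hic h.symm, Or.inl rfl⟩
      · exact Or.inl rfl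
      · exact Or.inr ⟨hzi, Or.inr ⟨hzb, hzU⟩⟩
  -- expand both Laplacians
  have e1 : jlap A F U
      = (F U - F (swp U b c)) + ∑ j ∈ (A \ U).erase c, (F U - F (swp U b j))
        + ∑ i ∈ U.erase b, ((F U - F (swp U i c))
            + ∑ j ∈ (A \ U).erase c, (F U - F (swp U i j))) := by
    have : jlap A F U = ∑ x ∈ insert b (U.erase b), ∑ y ∈ insert c ((A \ U).erase c),
        (F U - F (swp U x y)) := by
      rw [insert_erase hb, insert_erase hc]
      rfl
    rw [this, sum_insert (notMem_erase b U), sum_insert (notMem_erase c (A \ U))]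
    congr 1
    refine Finset.sum_congr rfl (fun i _ => ?_)
    rw [sum_insert (notMem_erase c (A \ U))]
  have hcU0 : c ∉ U.erase b := fun h => hcU (mem_of_mem_erase h)
  have hbW0 : b ∉ (A \ U).erase c := fun h => (mem_sdiff.1 (mem_of_mem_erase h)).2 hb
  have e2 : jlap A F (swp U b c)
      = (F (swp U b c) - F U) + ∑ j ∈ (A \ U).erase c, (F (swp U b c) - F (swp U b j))
        + ∑ i ∈ U.erase b, ((F (swp U b c) - F (swp U i c))
            + ∑ j ∈ (A \ U).erase c, (F (swp U b c) - F (swp (swp U i j) b c))) := by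
    have : jlap A F (swp U b c) = ∑ x ∈ insert c (U.erase b), ∑ y ∈ insert b ((A \ U).erase c),
        (F (swp U b c) - F (swp (swp U b c) x y)) := by
      rw [← hW']
      rfl
    rw [this, sum_insert hcU0, sum_insert hbW0, s1]
    congr 1
    · congr 1
      refine Finset.sum_congr rfl (fun j _ => ?_)
      rw [s2]
    · refine Finset.sum_congr rfl (fun i hi => ?_)
      rw [sum_insert hbW0, s3 i hi]
      congr 1
      refine Finset.sum_congr rfl (fun j hj => ?_)
      rw [s4 i hi j hj]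
  -- cardinalities
  have hcard : (A.card : ℝ) = ((U.erase b).card : ℝ) + (((A \ U).erase c).card : ℝ) + 2 := by
    have h1 : (U.erase b).card + 1 = U.card := by
      rw [card_erase_of_mem hb]
      have : 0 < U.card := card_pos.2 ⟨b, hb⟩
      omega
    have h2 : ((A \ U).erase c).card + 1 = (A \ U).card := by
      rw [card_erase_of_mem hc]
      have : 0 < (A \ U).card := card_pos.2 ⟨c, hc⟩
      omega
    have h3 : (A \ U).card + U.card = A.card := by
      rw [card_sdiff_of_subset hUA]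
      have := card_le_card hUA
      omega
    have h4 : A.card = (U.erase b).card + ((A \ U).erase c).card + 2 := by omega
    rw [h4]
    push_cast
    ring
  rw [e1, e2, hcard]
  simp only [Finset.sum_sub_distrib, Finset.sum_add_distrib, Finset.sum_const, nsmul_eq_mul]
  ring

/-- Every eigenfunction of the Johnson Laplacian is invariant under all moves, or its
eigenvalue is at least `|A|`. -/
theorem eig_bound (A : Finset α) (k : ℕ) (F : Finset α → ℝ) (μ : ℝ)
    (hF : ∀ U ∈ A.powersetCard k, jlap A F U = μ * F U) :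
    (∀ U ∈ A.powersetCard k, ∀ x ∈ U, ∀ y ∈ A \ U, F U = F (swp U x y)) ∨ (A.card : ℝ) ≤ μ := by
  by_cases hne : (moves A k).Nonempty
  · obtain ⟨t, ht, hmax⟩ := Finset.exists_max_image (moves A k)
      (fun t => |F t.1 - F (swp t.1 t.2.1 t.2.2)|) hne
    by_cases hM0 : |F t.1 - F (swp t.1 t.2.1 t.2.2)| = 0
    · left
      intro U hU x hx y hy
      have hmem : (U, (x, y)) ∈ moves A k := (mem_moves _).2 ⟨hU, mem_product.2 ⟨hx, hy⟩⟩
      have h1 := hmax _ hmem
      simp only at h1
      rw [hM0] at h1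
      have h2 := abs_nonpos_iff.1 h1
      linarith
    · right
      obtain ⟨hU, hxy⟩ := (mem_moves t).1 ht
      obtain ⟨hb, hc⟩ := mem_product.1 hxy
      obtain ⟨U, b, c⟩ := t
      simp only at hU hb hc hM0 hmax
      have hUA : U ⊆ A := (mem_powersetCard.1 hU).1
      have hcU : c ∉ U := (mem_sdiff.1 hc).2
      have hcA : c ∈ A := (mem_sdiff.1 hc).1
      have hcoup := jlap_coupling A F U hUA b c hb hc
      rw [hF _ hU, hF _ (swp_mem hU hb hc)] at hcoup
      set M := |F U - F (swp U b c)| with hM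
      have hMpos : 0 < M := lt_of_le_of_ne (abs_nonneg _) (Ne.symm hM0)
      set S := ∑ i ∈ U.erase b, ∑ j ∈ (A \ U).erase c,
            (F (swp U i j) - F (swp (swp U i j) b c)) with hSdef
      have hS : |S| ≤ ((U.erase b).card : ℝ) * ((((A \ U).erase c).card : ℝ) * M) := by
        calc |S| ≤ ∑ i ∈ U.erase b, |∑ j ∈ (A \ U).erase c,
                (F (swp U i j) - F (swp (swp U i j) b c))| := Finset.abs_sum_le_sum_abs _ _
          _ ≤ ∑ i ∈ U.erase b, ∑ j ∈ (A \ U).erase c,
                |F (swp U i j) - F (swp (swp U i j) b c)| :=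
              Finset.sum_le_sum (fun i _ => Finset.abs_sum_le_sum_abs _ _)
          _ ≤ ∑ i ∈ U.erase b, ∑ j ∈ (A \ U).erase c, M := by
              refine Finset.sum_le_sum (fun i hi => Finset.sum_le_sum (fun j hj => ?_))
              have hib : i ≠ b := (mem_erase.1 hi).1
              have hiU : i ∈ U := (mem_erase.1 hi).2
              have hjc : j ≠ c := (mem_erase.1 hj).1
              have hjAU : j ∈ A \ U := (mem_erase.1 hj).2
              have hmem : (swp U i j, (b, c)) ∈ moves A k := by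
                rw [mem_moves]
                refine ⟨swp_mem hU hiU hjAU, mem_product.2 ⟨?_, ?_⟩⟩
                · simp only [swp, mem_insert, mem_erase]
                  exact Or.inr ⟨fun h => hib h.symm, hb⟩
                · rw [mem_sdiff]
                  refine ⟨hcA, ?_⟩
                  simp only [swp, mem_insert, mem_erase]
                  rintro (h | ⟨-, h⟩)
                  · exact hjc h.symm
                  · exact hcU h
              exact hmax _ hmem
          _ = ((U.erase b).card : ℝ) * ((((A \ U).erase c).card : ℝ) * M) := by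
              simp only [Finset.sum_const, nsmul_eq_mul]
      have h1 : S = ((A.card : ℝ) + ((U.erase b).card : ℝ) * (((A \ U).erase c).card : ℝ) - μ)
          * (F U - F (swp U b c)) := by linarith
      have h2 : |S| = |(A.card : ℝ) + ((U.erase b).card : ℝ) * (((A \ U).erase c).card : ℝ) - μ|
          * M := by rw [h1, abs_mul]
      rw [h2] at hS
      have h3 : |(A.card : ℝ) + ((U.erase b).card : ℝ) * (((A \ U).erase c).card : ℝ) - μ|
          ≤ ((U.erase b).card : ℝ) * (((A \ U).erase c).card : ℝ) := by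
        have : |(A.card : ℝ) + ((U.erase b).card : ℝ) * (((A \ U).erase c).card : ℝ) - μ| * M
            ≤ (((U.erase b).card : ℝ) * (((A \ U).erase c).card : ℝ)) * M := by
          rw [mul_assoc]; exact hS
        exact le_of_mul_le_mul_right this hMpos
      have h4 := le_trans (le_abs_self _) h3
      linarith
  · left
    intro U hU x hx y hy
    exact absurd ⟨(U, (x, y)), (mem_moves _).2 ⟨hU, mem_product.2 ⟨hx, hy⟩⟩⟩ hne

theorem jlap_add (A : Finset α) (F G : Finset α → ℝ) (U : Finset α) :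
    jlap A (F + G) U = jlap A F U + jlap A G U := by
  unfold jlap
  rw [← Finset.sum_add_distrib]
  refine Finset.sum_congr rfl (fun x _ => ?_)
  rw [← Finset.sum_add_distrib]
  refine Finset.sum_congr rfl (fun y _ => ?_)
  simp only [Pi.add_apply]
  ring

theorem jlap_smul (A : Finset α) (c : ℝ) (F : Finset α → ℝ) (U : Finset α) :
    jlap A (c • F) U = c * jlap A F U := by
  unfold jlap
  rw [Finset.mul_sum]
  refine Finset.sum_congr rfl (fun x _ => ?_)
  rw [Finset.mul_sum]
  refine Finset.sum_congr rfl (fun y _ => ?_)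
  simp only [Pi.smul_apply, smul_eq_mul]
  ring

theorem sum_mul_jlap_symm (A : Finset α) (k : ℕ) (F G : Finset α → ℝ) :
    ∑ U ∈ A.powersetCard k, G U * jlap A F U = ∑ U ∈ A.powersetCard k, F U * jlap A G U := by
  have h1 := sum_mul_jlap A k F G
  have h2 := sum_mul_jlap A k G F
  have h3 : ∑ U ∈ A.powersetCard k, ∑ x ∈ U, ∑ y ∈ A \ U,
          (F U - F (swp U x y)) * (G U - G (swp U x y))
      = ∑ U ∈ A.powersetCard k, ∑ x ∈ U, ∑ y ∈ A \ U,
          (G U - G (swp U x y)) * (F U - F (swp U x y)) := by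
    refine Finset.sum_congr rfl (fun U _ => Finset.sum_congr rfl (fun x _ =>
      Finset.sum_congr rfl (fun y _ => mul_comm _ _)))
  linarith

/-- Extension by zero of a function on a finset of sets. -/
noncomputable def extZ (Om : Finset (Finset α)) (g : ↥Om → ℝ) (T : Finset α) : ℝ :=
  if h : T ∈ Om then g ⟨T, h⟩ else 0

theorem extZ_coe (Om : Finset (Finset α)) (g : ↥Om → ℝ) (U : ↥Om) : extZ Om g U.1 = g U := by
  unfold extZ
  rw [dif_pos U.2]

theorem extZ_of_mem (Om : Finset (Finset α)) (g : ↥Om → ℝ) {T : Finset α} (hT : T ∈ Om) :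
    extZ Om g T = g ⟨T, hT⟩ := by
  unfold extZ
  rw [dif_pos hT]

theorem extZ_add (Om : Finset (Finset α)) (f g : ↥Om → ℝ) :
    extZ Om (f + g) = extZ Om f + extZ Om g := by
  funext T
  unfold extZ
  by_cases h : T ∈ Om
  · simp [h]
  · simp [h]

theorem extZ_smul (Om : Finset (Finset α)) (c : ℝ) (g : ↥Om → ℝ) :
    extZ Om (c • g) = c • extZ Om g := by
  funext T
  unfold extZ
  by_cases h : T ∈ Om
  · simp [h]
  · simp [h]

/-- The Johnson Laplacian as an operator on functions on the subtype of `k`-subsets. -/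
noncomputable def jop (A : Finset α) (k : ℕ) (g : ↥(A.powersetCard k) → ℝ) :
    ↥(A.powersetCard k) → ℝ :=
  fun U => jlap A (extZ (A.powersetCard k) g) U.1

theorem dot_eq_sum (Om : Finset (Finset α)) (f g : ↥Om → ℝ) :
    dot f g = ∑ T ∈ Om, extZ Om f T * extZ Om g T := by
  unfold dot
  rw [← Finset.sum_coe_sort Om (fun T => extZ Om f T * extZ Om g T)]
  refine Finset.sum_congr rfl (fun U _ => ?_)
  rw [extZ_coe, extZ_coe]

theorem dot_jop (A : Finset α) (k : ℕ) (f g : ↥(A.powersetCard k) → ℝ) :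
    dot f (jop A k g) = ∑ T ∈ A.powersetCard k,
      extZ (A.powersetCard k) f T * jlap A (extZ (A.powersetCard k) g) T := by
  unfold dot
  rw [← Finset.sum_coe_sort (A.powersetCard k)
    (fun T => extZ (A.powersetCard k) f T * jlap A (extZ (A.powersetCard k) g) T)]
  refine Finset.sum_congr rfl (fun U _ => ?_)
  rw [extZ_coe]
  rfl

theorem jop_add (A : Finset α) (k : ℕ) (f g : ↥(A.powersetCard k) → ℝ) :
    jop A k (f + g) = jop A k f + jop A k g := by
  funext U
  simp only [jop, Pi.add_apply]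
  rw [extZ_add, jlap_add]

theorem jop_smul (A : Finset α) (k : ℕ) (c : ℝ) (f : ↥(A.powersetCard k) → ℝ) :
    jop A k (c • f) = c • jop A k f := by
  funext U
  simp only [jop, Pi.smul_apply, smul_eq_mul]
  rw [extZ_smul, jlap_smul]

theorem jop_symm (A : Finset α) (k : ℕ) (f g : ↥(A.powersetCard k) → ℝ) :
    dot f (jop A k g) = dot (jop A k f) g := by
  have hcomm : dot (jop A k f) g = dot g (jop A k f) := by
    unfold dot
    exact Finset.sum_congr rfl (fun x _ => mul_comm _ _)
  rw [hcomm, dot_jop, dot_jop]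
  exact sum_mul_jlap_symm A k _ _

theorem jlap_eq_zero_of_inv (A : Finset α) (F : Finset α → ℝ) (U : Finset α)
    (h : ∀ x ∈ U, ∀ y ∈ A \ U, F U = F (swp U x y)) : jlap A F U = 0 := by
  unfold jlap
  refine Finset.sum_eq_zero (fun x hx => Finset.sum_eq_zero (fun y hy => ?_))
  rw [h x hx y hy]
  ring

theorem jop_eig (A : Finset α) (k : ℕ) (μ : ℝ) (f : ↥(A.powersetCard k) → ℝ) (hf : f ≠ 0)
    (h : jop A k f = μ • f) : μ = 0 ∨ (A.card : ℝ) ≤ μ := by
  have hF : ∀ U ∈ A.powersetCard k,
      jlap A (extZ (A.powersetCard k) f) U = μ * extZ (A.powersetCard k) f U := by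
    intro U hU
    have := congrFun h ⟨U, hU⟩
    rw [extZ_of_mem _ f hU]
    simpa [jop] using this
  rcases eig_bound A k _ μ hF with hinv | hge
  · left
    obtain ⟨U, hU⟩ := Function.ne_iff.1 hf
    have h1 := hF U.1 U.2
    rw [jlap_eq_zero_of_inv A _ U.1 (hinv U.1 U.2), extZ_coe] at h1
    rcases mul_eq_zero.1 h1.symm with h2 | h2
    · exact h2
    · exact absurd h2 hU
  · exact Or.inr hge

theorem jop_ker (A : Finset α) (k : ℕ) (g : ↥(A.powersetCard k) → ℝ) (h : jop A k g = 0) :
    ∀ U ∈ A.powersetCard k, ∀ V ∈ A.powersetCard k,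
      extZ (A.powersetCard k) g U = extZ (A.powersetCard k) g V := by
  set G := extZ (A.powersetCard k) g with hG
  have h0 : ∑ U ∈ A.powersetCard k, G U * jlap A G U = 0 := by
    refine Finset.sum_eq_zero (fun U hU => ?_)
    have := congrFun h ⟨U, hU⟩
    have h2 : jlap A G U = 0 := by simpa [jop] using this
    rw [h2, mul_zero]
  have h1 := sum_mul_jlap A k G G
  rw [h0, mul_zero] at h1
  apply const_of_moves A k G
  intro U hU x hx y hy
  have e1 := (Finset.sum_eq_zero_iff_of_nonneg (fun U _ => Finset.sum_nonneg (fun x _ =>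
    Finset.sum_nonneg (fun y _ => mul_self_nonneg (G U - G (swp U x y)))))).1 h1.symm U hU
  have e2 := (Finset.sum_eq_zero_iff_of_nonneg (fun x _ =>
    Finset.sum_nonneg (fun y _ => mul_self_nonneg (G U - G (swp U x y))))).1 e1 x hx
  have e3 := (Finset.sum_eq_zero_iff_of_nonneg
    (fun y _ => mul_self_nonneg (G U - G (swp U x y)))).1 e2 y hy
  have e4 := mul_self_eq_zero.1 e3
  linarith

/-- **Sharp Johnson gap** (`D * Var <= Dir`, un-normalised), centred version. -/
theorem johnson_gap_centred (A : Finset α) (k : ℕ) (F : Finset α → ℝ)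
    (h0 : ∑ T ∈ A.powersetCard k, F T = 0) :
    2 * (A.card : ℝ) * ∑ T ∈ A.powersetCard k, F T ^ 2
      ≤ ∑ T ∈ A.powersetCard k, ∑ x ∈ T, ∑ y ∈ A \ T, (F T - F (insert y (T.erase x))) ^ 2 := by
  set Om := A.powersetCard k with hOm
  let f0 : ↥Om → ℝ := fun U => F U.1
  have hext : ∀ T ∈ Om, extZ Om f0 T = F T := fun T hT => extZ_of_mem Om f0 hT
  have hker : ∀ g, jop A k g = 0 → dot f0 g = 0 := by
    intro g hg
    have hc := jop_ker A k g hg
    rw [dot_eq_sum]
    by_cases hne : Om.Nonempty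
    · obtain ⟨T0, hT0⟩ := hne
      have : ∑ T ∈ Om, extZ Om f0 T * extZ Om g T = ∑ T ∈ Om, F T * extZ Om g T0 :=
        Finset.sum_congr rfl (fun T hT => by rw [hext T hT, hc T hT T0 hT0])
      rw [this, ← Finset.sum_mul, h0, zero_mul]
    · exact Finset.sum_eq_zero (fun T hT => absurd ⟨T, hT⟩ hne)
  have hgap := Vale.Agent.H58.spec_gap (jop A k) (jop_add A k) (jop_smul A k) (jop_symm A k)
    (A.card : ℝ) (jop_eig A k) f0 hker
  rw [dot_eq_sum, dot_jop] at hgap
  have e1 : ∑ T ∈ Om, extZ Om f0 T * extZ Om f0 T = ∑ T ∈ Om, F T ^ 2 :=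
    Finset.sum_congr rfl (fun T hT => by rw [hext T hT]; ring)
  have e2 := sum_mul_jlap A k (extZ Om f0) (extZ Om f0)
  have e3 : ∑ U ∈ A.powersetCard k, ∑ x ∈ U, ∑ y ∈ A \ U,
        (extZ Om f0 U - extZ Om f0 (swp U x y)) * (extZ Om f0 U - extZ Om f0 (swp U x y))
      = ∑ T ∈ Om, ∑ x ∈ T, ∑ y ∈ A \ T, (F T - F (insert y (T.erase x))) ^ 2 := by
    refine Finset.sum_congr rfl (fun U hU => Finset.sum_congr rfl (fun x hx =>
      Finset.sum_congr rfl (fun y hy => ?_)))
    rw [hext U hU, hext _ (swp_mem hU hx hy)]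
    unfold swp
    ring
  rw [e1] at hgap
  rw [e3] at e2
  linarith

/-- **Sharp Johnson gap** for an arbitrary function on the `k`-subsets of `A`. -/
theorem johnson_gap (A : Finset α) (k : ℕ) (f : Finset α → ℝ) :
    2 * (A.card : ℝ) * ∑ T ∈ A.powersetCard k,
        (f T - (∑ S ∈ A.powersetCard k, f S) / ((A.powersetCard k).card : ℝ)) ^ 2
      ≤ ∑ T ∈ A.powersetCard k, ∑ x ∈ T, ∑ y ∈ A \ T, (f T - f (insert y (T.erase x))) ^ 2 := by
  set m := (∑ S ∈ A.powersetCard k, f S) / ((A.powersetCard k).card : ℝ) with hm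
  have h0 : ∑ T ∈ A.powersetCard k, (f T - m) = 0 := by
    rw [Finset.sum_sub_distrib, Finset.sum_const, nsmul_eq_mul]
    by_cases hc : ((A.powersetCard k).card : ℝ) = 0
    · have : A.powersetCard k = ∅ := by
        rw [← Finset.card_eq_zero]; exact_mod_cast hc
      rw [this]; simp
    · rw [hm]; field_simp; ring
  have h := johnson_gap_centred A k (fun T => f T - m) h0
  have e : ∑ T ∈ A.powersetCard k, ∑ x ∈ T, ∑ y ∈ A \ T,
        ((f T - m) - (f (insert y (T.erase x)) - m)) ^ 2
      = ∑ T ∈ A.powersetCard k, ∑ x ∈ T, ∑ y ∈ A \ T, (f T - f (insert y (T.erase x))) ^ 2 :=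
    Finset.sum_congr rfl (fun T _ => Finset.sum_congr rfl (fun x _ =>
      Finset.sum_congr rfl (fun y _ => by ring)))
  rw [← e]
  exact h

end JG

end Vale.Agent.H73
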